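import Mathlib

namespace Vale.Agent.P034

/-- The integral expectation threshold: the largest `p` in `[0,1]` such that some cover `G` of `F`
has cost at most `1/2` at `p`. -/
noncomputable def qInt {X : Type} (F : Set (Finset X)) : ℝ :=
  sSup {p : ℝ | 0 ≤ p ∧ p ≤ 1 ∧ ∃ G : Finset (Finset X),
    (∀ H ∈ F, ∃ S ∈ G, S ⊆ H) ∧ ∑ S ∈ G, p ^ S.card ≤ 1 / 2}

/-- The fractional expectation threshold: the largest `p` in `[0,1]` such that some fractional
cover `g` of `F` has cost at most `1/2` at `p`. -/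
noncomputable def qFrac {X : Type} [Fintype X] (F : Set (Finset X)) : ℝ :=
  sSup {p : ℝ | 0 ≤ p ∧ p ≤ 1 ∧ ∃ g : Finset X → ℝ, (∀ S, 0 ≤ g S ∧ g S ≤ 1) ∧
    (∀ H ∈ F, 1 ≤ ∑ S ∈ H.powerset, g S) ∧ ∑ S : Finset X, g S * p ^ S.card ≤ 1 / 2}

end Vale.Agent.P034
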