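import Vale.Agent.P034.Select
import Vale.Agent.P034.Defs

/-! Rounding of fractional covers. -/

open Finset

namespace Vale.Agent.P034

variable {X : Type*} [Fintype X] [DecidableEq X] {R : ℕ}

omit [Fintype X] [DecidableEq X] in
lemma layer_cake (f : X → ℝ) : ∀ (n : ℕ) (H : Finset X) (w : X → ℝ), H.card = n →
    (∀ x ∈ H, 0 ≤ w x) → (∀ y ∈ H, ∑ x ∈ H with w y ≤ w x, f x ≤ 0) →
    ∑ x ∈ H, w x * f x ≤ 0 := by
  classical
  intro n
  induction n using Nat.strong_induction_on with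
  | _ n ih =>
    intro H w hn hw h
    rcases H.eq_empty_or_nonempty with rfl | hne
    · simp
    obtain ⟨y, hy, hmin⟩ := exists_min_image H w hne
    have h1 : ∑ x ∈ H, f x ≤ 0 := by
      have := h y hy
      rwa [filter_true_of_mem hmin] at this
    set H' := H.filter fun x => w y < w x with hH'
    have h2 : H'.card < n := by
      rw [← hn]
      refine card_lt_card ⟨filter_subset _ _, fun hs => ?_⟩
      exact lt_irrefl _ (mem_filter.1 (hs hy)).2
    have h3 := ih _ h2 H' (fun x => w x - w y) rfl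
      (fun x hx => by linarith [(mem_filter.1 hx).2]) (fun y' hy' => by
        have h4 := h y' (mem_filter.1 hy').1
        refine le_trans (le_of_eq (sum_congr ?_ fun _ _ => rfl)) h4
        ext x
        simp only [hH', mem_filter]
        have := (mem_filter.1 hy').2
        constructor
        · rintro ⟨⟨a, -⟩, b⟩; exact ⟨a, by linarith⟩
        · rintro ⟨a, b⟩; exact ⟨⟨a, by linarith⟩, by linarith⟩)
    have h5 : ∑ x ∈ H', (w x - w y) * f x = ∑ x ∈ H, (w x - w y) * f x := by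
      refine sum_filter_of_ne fun x hx hne => ?_
      refine lt_of_le_of_ne (hmin x hx) fun he => hne ?_
      rw [he]; ring
    have h6 : ∑ x ∈ H, w x * f x = w y * ∑ x ∈ H, f x + ∑ x ∈ H, (w x - w y) * f x := by
      rw [mul_sum, ← sum_add_distrib]
      exact sum_congr rfl fun x _ => by ring
    rw [h6, ← h5]
    nlinarith [hw y hy]

omit [Fintype X] [DecidableEq X] in
lemma good_bound (lam : Finset X → X → ℝ) (H : Finset X) (l : X → Fin (R + 1))
    (hw : ∀ x ∈ H, 0 ≤ lam H x) (h : Req lam H l fun _ => 0) :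
    ∑ x ∈ H, lam H x * ((l x : ℕ) : ℝ) ≤ ∑ x ∈ H, lam H x := by
  classical
  have := layer_cake (fun x => ((l x : ℕ) : ℝ) - 1) _ H (lam H) rfl hw fun y hy => ?_
  · simp only [mul_sub, mul_one, sum_sub_distrib] at this
    linarith
  have hA : (H.filter fun x => lam H y ≤ lam H x) = sup lam H y := by
    ext x; rw [mem_sup, mem_filter]
  rw [hA, sum_sub_distrib, sum_const, nsmul_eq_mul, mul_one, sub_nonpos]
  have h1 : ∀ x, ((l x : ℕ) : ℝ)
      = ∑ i : Fin (R + 1), if (i : ℕ) < (l x : ℕ) then (1 : ℝ) else 0 := by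
    intro x
    rw [Fin.sum_univ_eq_sum_range (fun i => if i < (l x : ℕ) then (1 : ℝ) else 0), ← sum_filter,
      sum_const, nsmul_eq_mul, mul_one]
    congr 1
    have : (range (R + 1)).filter (fun i => i < (l x : ℕ)) = range (l x) := by
      ext i
      have := (l x).2
      simp only [mem_filter, mem_range]
      omega
    rw [this, card_range]
  rw [sum_congr rfl fun x _ => h1 x, sum_comm]
  have h2 : ∀ i : Fin (R + 1), ∑ x ∈ sup lam H y, (if (i : ℕ) < (l x : ℕ) then (1 : ℝ) else 0)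
      ≤ (sup lam H y).card * (1 / 2) ^ ((i : ℕ) + 1) := by
    intro i
    rw [← sum_filter, sum_const, nsmul_eq_mul, mul_one]
    rcases h i y hy with h0 | h0
    · rw [h0, Nat.cast_zero]; positivity
    · rw [add_zero] at h0
      have h3 : (2 : ℝ) ^ ((i : ℕ) + 1) *
          (((sup lam H y).filter fun x => (i : ℕ) < (l x : ℕ)).card : ℝ)
          ≤ (sup lam H y).card := by exact_mod_cast h0
      rw [one_div, inv_pow, ← div_eq_mul_inv, le_div_iff₀ (by positivity)]
      linarith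
  refine (sum_le_sum fun i _ => h2 i).trans ?_
  rw [← mul_sum]
  exact mul_le_of_le_one_right (by positivity) (sum_half_pow_le _)

lemma exists_levels (z : ℝ) (hz : 0 < z) : ∃ (R : ℕ) (π : Fin (R + 1) → ℝ), (∀ j, 0 ≤ π j) ∧
    ∑ j, π j = 1 ∧ (∀ j : Fin (R + 1), (j : ℕ) < R → π j = 16 ^ (j : ℕ) * z) ∧
    ∀ j : Fin (R + 1), π j ≤ 2 * 16 ^ (j : ℕ) * z := by
  classical
  have hex : ∃ R : ℕ, 1 / 2 ≤ (16 : ℝ) ^ R * z := by
    obtain ⟨R, hR⟩ := pow_unbounded_of_one_lt (1 / (2 * z)) (by norm_num : (1 : ℝ) < 16)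
    refine ⟨R, ?_⟩
    rw [div_lt_iff₀ (by positivity)] at hR
    linarith
  set R := Nat.find hex with hR
  have h1 : 1 / 2 ≤ (16 : ℝ) ^ R * z := Nat.find_spec hex
  have h2 : ∑ i ∈ range R, (16 : ℝ) ^ i * z ≤ 1 := by
    have h3 : ∀ n, ∑ i ∈ range n, (16 : ℝ) ^ i * z ≤ 16 ^ n * z / 15 := by
      intro n
      induction n with
      | zero => simp; positivity
      | succ n ih => rw [sum_range_succ, pow_succ]; linarith
    rcases Nat.eq_zero_or_pos R with h0 | h0
    · simp [h0]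
    · have h4 := Nat.find_min hex (m := R - 1) (by omega)
      have h5 : (16 : ℝ) ^ R = 16 ^ (R - 1) * 16 := by
        rw [← pow_succ]; congr 1; omega
      have h6 := h3 R
      rw [h5] at h6
      push Not at h4
      linarith
  have h0 : 0 ≤ ∑ i ∈ range R, (16 : ℝ) ^ i * z := sum_nonneg fun _ _ => by positivity
  refine ⟨R, fun j => if (j : ℕ) < R then 16 ^ (j : ℕ) * z
    else 1 - ∑ i ∈ range R, (16 : ℝ) ^ i * z, fun j => ?_, ?_, fun j hj => if_pos hj, fun j => ?_⟩
  · dsimp only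
    split_ifs
    · positivity
    · linarith
  · rw [Fin.sum_univ_castSucc]
    simp only [Fin.val_castSucc, Fin.is_lt, if_true, Fin.val_last, lt_irrefl, if_false]
    rw [Fin.sum_univ_eq_sum_range (fun i => (16 : ℝ) ^ i * z)]
    ring
  · dsimp only
    split_ifs with h
    · have : 0 ≤ (16 : ℝ) ^ (j : ℕ) * z := by positivity
      linarith
    · have : (j : ℕ) = R := by have := j.2; omega
      rw [this]
      linarith

lemma sum_prod_eq (φ : X → Fin (R + 1) → ℝ) :
    ∑ l : X → Fin (R + 1), ∏ x, φ x (l x) = ∏ x, ∑ j, φ x j := by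
  rw [prod_univ_sum, Fintype.piFinset_univ]

open Classical in
lemma bad_bound (F : Set (Finset X)) (lam : Finset X → X → ℝ) (q : ℝ) (hq : 0 < q)
    (π : Fin (R + 1) → ℝ) (h0 : ∀ j, 0 ≤ π j) (h1 : ∑ j, π j = 1)
    (h2 : ∀ j : Fin (R + 1), (j : ℕ) < R → π j = 16 ^ (j : ℕ) * (1024 * q))
    (hns : ∀ G : Finset (Finset X), (∀ H ∈ F, ∃ S ∈ G, S ⊆ H) → 1 / 2 < ∑ S ∈ G, q ^ S.card) :
    ∑ l : X → Fin (R + 1), (∏ x, π (l x)) *
      (if ∃ H ∈ F, Req lam H l (fun _ => 0) then 0 else 1) ≤ 1 / 8 := by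
  set adm : (X → Fin (R + 1)) → Finset X → Prop := fun l' U =>
    (U.Nonempty ∧ U ⊆ cand F lam l' (cum l' U)) ∧ ∀ x ∈ U, (l' x : ℕ) < R with hadm
  have hP : ∀ l : X → Fin (R + 1), 0 ≤ ∏ x, π (l x) := fun l => prod_nonneg fun x _ => h0 _
  have hpt : ∀ l : X → Fin (R + 1), (if ∃ H ∈ F, Req lam H l (fun _ => 0) then (0 : ℝ) else 1)
      ≤ 2 * ∑ l' : X → Fin (R + 1), ∑ U : Finset X,
        (if adm l' U ∧ ∀ x, x ∉ U → l x = l' x then q ^ U.card else 0) := by
    intro l
    have hnn : ∀ (l' : X → Fin (R + 1)) (U : Finset X),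
        0 ≤ (if adm l' U ∧ ∀ x, x ∉ U → l x = l' x then q ^ U.card else 0) := by
      intro l' U
      split_ifs <;> positivity
    by_cases hb : ∃ H ∈ F, Req lam H l (fun _ => 0)
    · rw [if_pos hb]
      exact mul_nonneg (by norm_num) (sum_nonneg fun _ _ => sum_nonneg fun _ _ => hnn _ _)
    rw [if_neg hb, sum_comm]
    have h3 := hns (univ.filter fun U => ∃ l', adm l' U ∧ ∀ x, x ∉ U → l x = l' x) fun H hH => by
      obtain ⟨l', U, a1, a2, a3, a4, a5⟩ := exists_minimal F lam l H hH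
      refine ⟨U, mem_filter.2 ⟨mem_univ _, l', ⟨⟨?_, a5⟩, a3⟩, a2⟩, a1⟩
      rw [nonempty_iff_ne_empty]
      rintro rfl
      have e1 : l = l' := funext fun x => a2 x (notMem_empty x)
      subst e1
      refine hb ?_
      have e2 : cum l ∅ = fun _ => 0 := by funext i; simp [cum]
      rwa [e2] at a4
    have h4 : ∑ U ∈ univ.filter (fun U => ∃ l', adm l' U ∧ ∀ x, x ∉ U → l x = l' x), q ^ U.card
        ≤ ∑ U : Finset X, ∑ l' : X → Fin (R + 1),
          (if adm l' U ∧ ∀ x, x ∉ U → l x = l' x then q ^ U.card else 0) := by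
      rw [sum_filter]
      refine sum_le_sum fun U _ => ?_
      split_ifs with h
      · obtain ⟨l', hl'⟩ := h
        have := single_le_sum (f := fun l' : X → Fin (R + 1) =>
          (if adm l' U ∧ ∀ x, x ∉ U → l x = l' x then q ^ U.card else 0))
          (fun l' _ => hnn l' U) (mem_univ l')
        simp only [if_pos hl'] at this
        exact this
      · exact sum_nonneg fun _ _ => hnn _ _
    linarith
  refine (sum_le_sum fun l _ => mul_le_mul_of_nonneg_left (hpt l) (hP l)).trans ?_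
  have h5 : ∀ (l' : X → Fin (R + 1)) (U : Finset X), ∑ l : X → Fin (R + 1), (∏ x, π (l x)) *
      (if adm l' U ∧ ∀ x, x ∉ U → l x = l' x then q ^ U.card else 0)
      ≤ (∏ x, π (l' x)) * (if U.Nonempty ∧ U ⊆ cand F lam l' (cum l' U) then
        ∏ x ∈ U, ((1 / 1024 : ℝ) * (1 / 16) ^ (l' x : ℕ)) else 0) := by
    intro l' U
    by_cases ha : adm l' U
    · rw [if_pos ha.1]
      refine le_of_eq ?_
      have e1 : ∀ l : X → Fin (R + 1), (∏ x, π (l x)) *
          (if adm l' U ∧ ∀ x, x ∉ U → l x = l' x then q ^ U.card else 0)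
          = ∏ x, (if x ∈ U then q * π (l x) else if l x = l' x then π (l x) else 0) := by
        intro l
        by_cases hl : ∀ x, x ∉ U → l x = l' x
        · rw [if_pos ⟨ha, hl⟩, ← prod_const, ← prod_ite_mem_eq U (fun _ => q), ← prod_mul_distrib]
          refine prod_congr rfl fun x _ => ?_
          by_cases hx : x ∈ U
          · simp [hx, mul_comm]
          · simp [hx, hl x hx]
        · rw [if_neg (fun h => hl h.2), mul_zero]
          push Not at hl
          obtain ⟨x, hx, hx'⟩ := hl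
          exact (prod_eq_zero (mem_univ x) (by simp [hx, hx'])).symm
      rw [sum_congr rfl fun l _ => e1 l, sum_prod_eq
        (fun x j => if x ∈ U then q * π j else if j = l' x then π j else 0),
        ← prod_ite_mem_eq U, ← prod_mul_distrib]
      refine prod_congr rfl fun x _ => ?_
      by_cases hx : x ∈ U
      · simp only [hx, if_true]
        rw [← mul_sum, h1, h2 _ (ha.2 x hx), one_div (16 : ℝ), inv_pow]
        field_simp
      · simp [hx]
    · have e1 : ∀ l : X → Fin (R + 1), (∏ x, π (l x)) *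
          (if adm l' U ∧ ∀ x, x ∉ U → l x = l' x then q ^ U.card else 0) = 0 := by
        intro l
        rw [if_neg (fun h => ha h.1), mul_zero]
      rw [sum_congr rfl fun l _ => e1 l, sum_const_zero]
      refine mul_nonneg (hP l') ?_
      split_ifs
      · positivity
      · exact le_rfl
  have h6 : ∑ l : X → Fin (R + 1), (∏ x, π (l x)) * (2 * ∑ l' : X → Fin (R + 1), ∑ U : Finset X,
        (if adm l' U ∧ ∀ x, x ∉ U → l x = l' x then q ^ U.card else 0))
      = 2 * ∑ l' : X → Fin (R + 1), ∑ U : Finset X, ∑ l : X → Fin (R + 1), (∏ x, π (l x)) *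
        (if adm l' U ∧ ∀ x, x ∉ U → l x = l' x then q ^ U.card else 0) := by
    simp only [mul_left_comm _ (2 : ℝ)]
    rw [← mul_sum]
    congr 1
    simp only [mul_sum]
    rw [sum_comm]
    exact sum_congr rfl fun l' _ => sum_comm
  rw [h6]
  have h7 : ∑ l' : X → Fin (R + 1), ∑ U : Finset X, ∑ l : X → Fin (R + 1), (∏ x, π (l x)) *
        (if adm l' U ∧ ∀ x, x ∉ U → l x = l' x then q ^ U.card else 0)
      ≤ ∑ l' : X → Fin (R + 1), (∏ x, π (l' x)) * (1 / 16) := by
    refine sum_le_sum fun l' _ => (sum_le_sum fun U _ => h5 l' U).trans ?_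
    rw [← mul_sum, ← sum_filter]
    exact mul_le_mul_of_nonneg_left (sum_adm_le F lam l') (hP l')
  rw [← sum_mul, sum_prod_eq (fun _ j => π j)] at h7
  simp only [h1, prod_const_one] at h7
  linarith

lemma first_moment (π : Fin (R + 1) → ℝ) (z : ℝ) (hz : 0 ≤ z) (h0 : ∀ j, 0 ≤ π j)
    (h1 : ∑ j, π j = 1) (h3 : ∀ j : Fin (R + 1), π j ≤ 2 * 16 ^ (j : ℕ) * z) (S : Finset X) :
    ∑ l : X → Fin (R + 1), (∏ x, π (l x)) * ∏ x ∈ S, (1024 * (1 / 32 : ℝ) ^ (l x : ℕ))
      ≤ (4096 * z) ^ S.card := by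
  have e1 : ∀ l : X → Fin (R + 1), (∏ x, π (l x)) * ∏ x ∈ S, (1024 * (1 / 32 : ℝ) ^ (l x : ℕ))
      = ∏ x, (if x ∈ S then π (l x) * (1024 * (1 / 32 : ℝ) ^ (l x : ℕ)) else π (l x)) := by
    intro l
    rw [← prod_ite_mem_eq S, ← prod_mul_distrib]
    refine prod_congr rfl fun x _ => ?_
    split_ifs <;> simp
  rw [sum_congr rfl fun l _ => e1 l, sum_prod_eq
    (fun x j => if x ∈ S then π j * (1024 * (1 / 32 : ℝ) ^ (j : ℕ)) else π j), ← prod_const,
    ← prod_ite_mem_eq S]
  refine prod_le_prod (fun x _ => sum_nonneg fun j _ => ?_) fun x _ => ?_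
  · have := h0 j
    split_ifs <;> positivity
  · by_cases hx : x ∈ S
    · simp only [hx, if_true]
      have h4 : ∀ j : Fin (R + 1), π j * (1024 * (1 / 32 : ℝ) ^ (j : ℕ))
          ≤ 4096 * z * (1 / 2) ^ ((j : ℕ) + 1) := by
        intro j
        refine (mul_le_mul_of_nonneg_right (h3 j) (by positivity)).trans (le_of_eq ?_)
        rw [pow_succ, show (1 / 2 : ℝ) = 16 * (1 / 32) by norm_num, mul_pow]
        ring
      refine (sum_le_sum fun j _ => h4 j).trans ?_
      rw [← mul_sum]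
      exact mul_le_of_le_one_right (by positivity) (sum_half_pow_le _)
    · simp [hx, h1]

omit [Fintype X] [DecidableEq X] in
lemma weight_ge (S : Finset X) (hS : S.Nonempty) (l : X → Fin (R + 1)) :
    1 - (∑ x ∈ S, ((l x : ℕ) : ℝ)) / S.card / 2
      ≤ ∏ x ∈ S, (1024 * (1 / 32 : ℝ) ^ (l x : ℕ)) := by
  have hc : (0 : ℝ) < S.card := by exact_mod_cast hS.card_pos
  have h0 : 0 ≤ (∑ x ∈ S, ((l x : ℕ) : ℝ)) / S.card / 2 := by positivity
  by_cases h : ∑ x ∈ S, (l x : ℕ) ≤ 2 * S.card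
  · rw [prod_mul_distrib, prod_const, prod_pow_eq_pow_sum]
    have h1 : (1 / 32 : ℝ) ^ (2 * S.card) ≤ (1 / 32 : ℝ) ^ (∑ x ∈ S, (l x : ℕ)) :=
      pow_le_pow_of_le_one (by norm_num) (by norm_num) h
    have h2 : (1024 : ℝ) ^ S.card * (1 / 32 : ℝ) ^ (2 * S.card) = 1 := by
      rw [pow_mul, ← mul_pow]; norm_num
    have h3 := mul_le_mul_of_nonneg_left h1 (by positivity : (0 : ℝ) ≤ 1024 ^ S.card)
    linarith
  · have h1 : (2 : ℝ) * S.card ≤ ∑ x ∈ S, ((l x : ℕ) : ℝ) := by exact_mod_cast (not_le.1 h).le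
    have h2 : 2 ≤ (∑ x ∈ S, ((l x : ℕ) : ℝ)) / S.card := by rwa [le_div_iff₀ hc]
    have h3 : 0 ≤ ∏ x ∈ S, (1024 * (1 / 32 : ℝ) ^ (l x : ℕ)) := by positivity
    linarith

theorem rounding (F : Set (Finset X)) (p : ℝ) (hp : 0 < p) (g : Finset X → ℝ)
    (hg : ∀ S, 0 ≤ g S) (hcov : ∀ H ∈ F, 1 ≤ ∑ S ∈ H.powerset, g S)
    (hcost : ∑ S : Finset X, g S * p ^ S.card ≤ 1 / 2) :
    ∃ G : Finset (Finset X), (∀ H ∈ F, ∃ S ∈ G, S ⊆ H) ∧
      ∑ S ∈ G, (p / 2 ^ 25) ^ S.card ≤ 1 / 2 := by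
  classical
  by_contra hns
  push Not at hns
  set q := p / 2 ^ 25 with hq
  have hq0 : 0 < q := by positivity
  obtain ⟨R, π, h0, h1, h2, h3⟩ := exists_levels (1024 * q) (by positivity)
  set lam : Finset X → X → ℝ :=
    fun H x => ∑ S ∈ H.powerset.erase ∅, if x ∈ S then g S / S.card else 0 with hlam
  have hlam0 : ∀ H x, 0 ≤ lam H x := fun H x => sum_nonneg fun S _ => by
    have := hg S
    split_ifs <;> positivity
  have hbad := bad_bound F lam q hq0 π h0 h1 h2 hns
  have hP : ∀ l : X → Fin (R + 1), 0 ≤ ∏ x, π (l x) := fun l => prod_nonneg fun x _ => h0 _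
  set Y : (X → Fin (R + 1)) → ℝ := fun l =>
    ∑ S ∈ univ.erase ∅, g S * ∏ x ∈ S, (1024 * (1 / 32 : ℝ) ^ (l x : ℕ)) with hY
  have hg0 : g ∅ ≤ 1 / 2 := by
    have := single_le_sum (f := fun S : Finset X => g S * p ^ S.card)
      (fun S _ => mul_nonneg (hg S) (by positivity)) (mem_univ ∅)
    simp only [card_empty, pow_zero, mul_one] at this
    linarith
  have hsumlam : ∀ (H : Finset X) (f : X → ℝ), ∑ x ∈ H, lam H x * f x
      = ∑ S ∈ H.powerset.erase ∅, g S * ((∑ x ∈ S, f x) / S.card) := by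
    intro H f
    simp only [hlam, sum_mul]
    rw [sum_comm]
    refine sum_congr rfl fun S hS => ?_
    have hSH : S ⊆ H := mem_powerset.1 (mem_of_mem_erase hS)
    simp only [ite_mul, zero_mul]
    rw [← sum_filter, filter_mem_eq_inter, inter_eq_right.2 hSH, ← mul_sum]
    ring
  have hgood : ∀ l : X → Fin (R + 1), (∃ H ∈ F, Req lam H l (fun _ => 0)) → 1 ≤ 4 * Y l := by
    rintro l ⟨H, hH, hreq⟩
    have a1 := good_bound lam H l (fun x _ => hlam0 H x) hreq
    have a2 := hsumlam H (fun _ => 1)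
    simp only [mul_one] at a2
    have a3 : ∑ S ∈ H.powerset.erase ∅, g S * ((∑ x ∈ S, (1 : ℝ)) / S.card)
        = ∑ S ∈ H.powerset.erase ∅, g S := by
      refine sum_congr rfl fun S hS => ?_
      have hc : (S.card : ℝ) ≠ 0 := by
        exact_mod_cast (nonempty_iff_ne_empty.2 (ne_of_mem_erase hS)).card_pos.ne'
      simp [hc]
    rw [hsumlam, a2, a3] at a1
    have a4 := add_sum_erase H.powerset g (empty_mem_powerset H)
    have a5 := hcov H hH
    have a6 : ∑ S ∈ H.powerset.erase ∅, g S * (1 - (∑ x ∈ S, ((l x : ℕ) : ℝ)) / S.card / 2)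
        ≤ Y l := by
      refine le_trans (sum_le_sum fun S hS => mul_le_mul_of_nonneg_left
        (weight_ge S (nonempty_iff_ne_empty.2 (ne_of_mem_erase hS)) l) (hg S)) ?_
      exact sum_le_sum_of_subset_of_nonneg (erase_subset_erase _ (subset_univ _))
        fun S _ _ => mul_nonneg (hg S) (by positivity)
    have a7 : ∑ S ∈ H.powerset.erase ∅, g S * (1 - (∑ x ∈ S, ((l x : ℕ) : ℝ)) / S.card / 2)
        = ∑ S ∈ H.powerset.erase ∅, g S - (∑ S ∈ H.powerset.erase ∅,
          g S * ((∑ x ∈ S, ((l x : ℕ) : ℝ)) / S.card)) / 2 := by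
      rw [sum_div, ← sum_sub_distrib]
      exact sum_congr rfl fun S _ => by ring
    linarith
  have hEY : ∑ l : X → Fin (R + 1), (∏ x, π (l x)) * Y l ≤ 1 / 16 := by
    simp only [hY, mul_sum]
    rw [sum_comm]
    have b1 : ∀ S ∈ (univ : Finset (Finset X)).erase ∅, ∑ l : X → Fin (R + 1), (∏ x, π (l x)) *
        (g S * ∏ x ∈ S, (1024 * (1 / 32 : ℝ) ^ (l x : ℕ))) ≤ g S * p ^ S.card / 8 := by
      intro S hS
      simp only [mul_left_comm _ (g S)]
      rw [← mul_sum, mul_div_assoc]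
      refine mul_le_mul_of_nonneg_left ?_ (hg S)
      refine (first_moment π (1024 * q) (by positivity) h0 h1 h3 S).trans ?_
      have b2 : 4096 * (1024 * q) = p * (1 / 8) := by rw [hq]; ring
      have b3 : S.card ≠ 0 := (nonempty_iff_ne_empty.2 (ne_of_mem_erase hS)).card_pos.ne'
      have b4 : (1 / 8 : ℝ) ^ S.card ≤ 1 / 8 := pow_le_of_le_one (by norm_num) (by norm_num) b3
      rw [b2, mul_pow, div_eq_mul_one_div (p ^ S.card)]
      exact mul_le_mul_of_nonneg_left b4 (by positivity)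
    refine (sum_le_sum b1).trans ?_
    rw [← sum_div]
    have b5 : ∑ S ∈ (univ : Finset (Finset X)).erase ∅, g S * p ^ S.card
        ≤ ∑ S : Finset X, g S * p ^ S.card :=
      sum_le_sum_of_subset_of_nonneg (erase_subset _ _)
        fun S _ _ => mul_nonneg (hg S) (by positivity)
    linarith
  have htot : ∑ l : X → Fin (R + 1), (∏ x, π (l x)) = 1 := by
    rw [sum_prod_eq (fun _ j => π j)]
    simp [h1]
  have hfin : ∑ l : X → Fin (R + 1), (∏ x, π (l x)) ≤ ∑ l : X → Fin (R + 1), ((∏ x, π (l x)) *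
      (if ∃ H ∈ F, Req lam H l (fun _ => 0) then 0 else 1) + 4 * ((∏ x, π (l x)) * Y l)) := by
    refine sum_le_sum fun l _ => ?_
    have c1 := hP l
    have c2 : 0 ≤ Y l := sum_nonneg fun S _ => mul_nonneg (hg S) (by positivity)
    split_ifs with h
    · nlinarith [hgood l h]
    · nlinarith
  rw [sum_add_distrib, ← mul_sum] at hfin
  linarith

theorem qFrac_le {X : Type} [Fintype X] (F : Set (Finset X)) (hF : ∅ ∉ F) :
    qFrac F ≤ 2 ^ 25 * qInt F := by
  classical
  have hb : BddAbove {p : ℝ | 0 ≤ p ∧ p ≤ 1 ∧ ∃ G : Finset (Finset X),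
      (∀ H ∈ F, ∃ S ∈ G, S ⊆ H) ∧ ∑ S ∈ G, p ^ S.card ≤ 1 / 2} := ⟨1, fun _ h => h.2.1⟩
  have h0 : 0 ≤ qInt F := by
    refine le_csSup hb ⟨le_rfl, zero_le_one, univ.erase ∅, fun H hH => ?_, ?_⟩
    · exact ⟨H, mem_erase.2 ⟨fun h => hF (h ▸ hH), mem_univ _⟩, Subset.rfl⟩
    · rw [sum_eq_zero]
      · norm_num
      · intro S hS
        exact zero_pow (nonempty_iff_ne_empty.2 (ne_of_mem_erase hS)).card_pos.ne'
  refine Real.sSup_le ?_ (by positivity)
  rintro p ⟨hp0, hp1, g, hg, hcov, hcost⟩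
  rcases hp0.eq_or_lt with rfl | hp
  · positivity
  obtain ⟨G, hG1, hG2⟩ := rounding F p hp g (fun S => (hg S).1) hcov hcost
  have h1 : p / 2 ^ 25 ≤ qInt F :=
    le_csSup hb ⟨by positivity, by linarith [div_le_self hp0 (by norm_num : (1 : ℝ) ≤ 2 ^ 25)],
      G, hG1, hG2⟩
  rw [div_le_iff₀ (by positivity)] at h1
  linarith

end Vale.Agent.P034
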