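import Mathlib

/-! Multi-level selector lemma: minimal lowerings of a random level function. -/

open Finset

namespace Vale.Agent.P034

variable {X : Type*} [Fintype X] [DecidableEq X] {R : ℕ}

open Classical in
/-- Superlevel set of the weight of `H` at height given by `y`. -/
noncomputable def sup (lam : Finset X → X → ℝ) (H : Finset X) (y : X) : Finset X :=
  H.filter fun x => lam H y ≤ lam H x

/-- The capture requirement. -/
def Req (lam : Finset X → X → ℝ) (H : Finset X) (l : X → Fin (R + 1)) (M : ℕ → ℕ) : Prop :=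
  ∀ i : ℕ, ∀ y ∈ H, ((sup lam H y).filter fun x => i < (l x : ℕ)).card = 0 ∨
    2 ^ (i + 1) * (((sup lam H y).filter fun x => i < (l x : ℕ)).card + M i) ≤ (sup lam H y).card

/-- Number of elements of `U` of level at most `i`. -/
def cum (l : X → Fin (R + 1)) (U : Finset X) (i : ℕ) : ℕ :=
  (U.filter fun x => (l x : ℕ) ≤ i).card

/-- A canonical member satisfying the requirement. -/
noncomputable def can (F : Set (Finset X)) (lam : Finset X → X → ℝ) (l : X → Fin (R + 1))
    (M : ℕ → ℕ) : Finset X :=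
  Classical.epsilon fun H => H ∈ F ∧ Req lam H l M

/-- Candidates for the lowered elements. -/
noncomputable def cand (F : Set (Finset X)) (lam : Finset X → X → ℝ) (l : X → Fin (R + 1))
    (M : ℕ → ℕ) : Finset X :=
  (can F lam l M).filter fun x => (sup lam (can F lam l M) x).card < 2 ^ ((l x : ℕ) + 1) * M (l x)

omit [Fintype X] [DecidableEq X] in
lemma mem_sup {lam : Finset X → X → ℝ} {H : Finset X} {x y : X} :
    x ∈ sup lam H y ↔ x ∈ H ∧ lam H y ≤ lam H x := by
  unfold sup; exact mem_filter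

lemma exists_minimal (F : Set (Finset X)) (lam : Finset X → X → ℝ) (l : X → Fin (R + 1))
    (H : Finset X) (hH : H ∈ F) :
    ∃ (l' : X → Fin (R + 1)) (U : Finset X), U ⊆ H ∧ (∀ x, x ∉ U → l x = l' x) ∧
      (∀ x ∈ U, (l' x : ℕ) < R) ∧ (∃ H' ∈ F, Req lam H' l' (cum l' U)) ∧
      U ⊆ cand F lam l' (cum l' U) := by
  classical
  set D : (X → Fin (R + 1)) → Finset X := fun l' => univ.filter fun x => l' x ≠ l x with hD
  set A : Finset (X → Fin (R + 1)) := univ.filter fun l' => (∀ x, l' x ≤ l x) ∧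
    (∀ x, x ∉ H → l' x = l x) ∧ ∃ H' ∈ F, Req lam H' l' (cum l' (D l')) with hA
  have hne : A.Nonempty := by
    refine ⟨fun x => if x ∈ H then 0 else l x, ?_⟩
    simp only [hA, mem_filter, mem_univ, true_and]
    refine ⟨fun x => ?_, fun x hx => if_neg hx, H, hH, fun i y _ => Or.inl ?_⟩
    · split_ifs
      · exact Fin.zero_le _
      · exact le_rfl
    · rw [card_eq_zero, filter_eq_empty_iff]
      intro x hx
      simp [(mem_sup.1 hx).1]
  obtain ⟨l', hl', hmax⟩ := exists_max_image A (fun l' => ∑ x, (l' x : ℕ)) hne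
  simp only [hA, mem_filter, mem_univ, true_and] at hl' hmax
  obtain ⟨h1, h2, h3⟩ := hl'
  have hlt : ∀ x ∈ D l', (l' x : ℕ) < l x := by
    intro x hx
    have hx' : l' x ≠ l x := by simpa [hD] using hx
    exact lt_of_le_of_ne (h1 x) (fun h => hx' (Fin.ext h))
  refine ⟨l', D l', fun x hx => ?_, fun x hx => ?_, fun x hx => ?_, h3, fun x hx => ?_⟩
  · by_contra hxH
    have hx' : l' x ≠ l x := by simpa [hD] using hx
    exact hx' (h2 x hxH)
  · have : l' x = l x := by simpa [hD] using hx
    exact this.symm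
  · have := hlt x hx
    have := (l x).2
    omega
  · by_contra hxc
    have hcan : can F lam l' (cum l' (D l')) ∈ F ∧
        Req lam (can F lam l' (cum l' (D l'))) l' (cum l' (D l')) :=
      Classical.epsilon_spec (p := fun H => H ∈ F ∧ Req lam H l' (cum l' (D l'))) h3
    set C := can F lam l' (cum l' (D l')) with hC
    have hxl := hlt x hx
    have hb : (l' x : ℕ) + 1 < R + 1 := by have := (l x).2; omega
    set l2 : X → Fin (R + 1) := Function.update l' x ⟨(l' x : ℕ) + 1, hb⟩ with hl2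
    have e1 : (l2 x : ℕ) = l' x + 1 := by simp [hl2]
    have e2 : ∀ w, w ≠ x → l2 w = l' w := fun w hw => by simp [hl2, hw]
    have hxH : x ∈ H := by
      by_contra hxH
      have := h2 x hxH
      rw [this] at hxl
      exact lt_irrefl _ hxl
    have hsubD : D l2 ⊆ D l' := by
      intro w hw
      by_cases hwx : w = x
      · rw [hwx]; exact hx
      · simpa [hD, e2 w hwx] using hw
    have hcum1 : ∀ i, cum l2 (D l2) i ≤ cum l' (D l') i := by
      intro i
      refine card_le_card fun w hw => ?_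
      rw [mem_filter] at hw ⊢
      refine ⟨hsubD hw.1, ?_⟩
      by_cases hwx : w = x
      · have := hw.2
        rw [hwx] at this ⊢
        omega
      · rw [← e2 w hwx]; exact hw.2
    have hcum2 : cum l2 (D l2) (l' x) + 1 ≤ cum l' (D l') (l' x) := by
      refine card_lt_card ⟨fun w hw => ?_, fun hsub => ?_⟩
      · rw [mem_filter] at hw ⊢
        refine ⟨hsubD hw.1, ?_⟩
        by_cases hwx : w = x
        · rw [hwx]
        · rw [← e2 w hwx]; exact hw.2
      · have := (mem_filter.1 (hsub (mem_filter.2 ⟨hx, le_rfl⟩))).2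
        omega
    have hreq : Req lam C l2 (cum l2 (D l2)) := by
      intro i y hy
      have hold := hcan.2 i y hy
      by_cases hcase : i = l' x ∧ x ∈ sup lam C y
      · obtain ⟨hi, hxs⟩ := hcase
        have hB : ((sup lam C y).filter fun w => i < (l2 w : ℕ)).card
            ≤ ((sup lam C y).filter fun w => i < (l' w : ℕ)).card + 1 := by
          refine le_trans (card_le_card (t := insert x
            ((sup lam C y).filter fun w => i < (l' w : ℕ))) fun w hw => ?_) (card_insert_le _ _)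
          by_cases hwx : w = x
          · rw [hwx]; exact mem_insert_self _ _
          · rw [mem_filter, e2 w hwx] at hw
            exact mem_insert_of_mem (mem_filter.2 hw)
        have hbig : 2 ^ ((l' x : ℕ) + 1) * cum l' (D l') (l' x) ≤ (sup lam C y).card := by
          have h5 : ¬ (sup lam C x).card < 2 ^ ((l' x : ℕ) + 1) * cum l' (D l') (l' x) :=
            fun h => hxc (mem_filter.2 ⟨(mem_sup.1 hxs).1, h⟩)
          refine (not_lt.1 h5).trans (card_le_card fun w hw => ?_)
          exact mem_sup.2 ⟨(mem_sup.1 hw).1, (mem_sup.1 hxs).2.trans (mem_sup.1 hw).2⟩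
        right
        rw [← hi] at hbig hcum2
        rcases hold with h0 | h0
        · refine le_trans (Nat.mul_le_mul_left _ ?_) hbig
          omega
        · refine le_trans (Nat.mul_le_mul_left _ ?_) h0
          omega
      · have hB : ((sup lam C y).filter fun w => i < (l2 w : ℕ))
            = ((sup lam C y).filter fun w => i < (l' w : ℕ)) := by
          refine filter_congr fun w hw => ?_
          by_cases hwx : w = x
          · subst hwx
            have : i ≠ l' w := fun h => hcase ⟨h, hw⟩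
            omega
          · rw [e2 w hwx]
        rw [hB]
        rcases hold with h0 | h0
        · exact Or.inl h0
        · right
          refine le_trans (Nat.mul_le_mul_left _ ?_) h0
          have := hcum1 i
          omega
    have hmem := hmax l2 ⟨fun w => ?_, fun w hw => ?_, C, hcan.1, hreq⟩
    · have h6 : ∑ w, (l' w : ℕ) < ∑ w, (l2 w : ℕ) := by
        refine sum_lt_sum (fun w _ => ?_) ⟨x, mem_univ _, by omega⟩
        by_cases hwx : w = x
        · rw [hwx]; omega
        · rw [e2 w hwx]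
      omega
    · by_cases hwx : w = x
      · rw [hwx, Fin.le_def]; omega
      · rw [e2 w hwx]; exact h1 w
    · have hwx : w ≠ x := fun h => hw (h ▸ hxH)
      rw [e2 w hwx]; exact h2 w hw

omit [Fintype X] [DecidableEq X] in
lemma card_small_sup (lam : Finset X → X → ℝ) (H : Finset X) (N : ℕ) :
    (H.filter fun x => (sup lam H x).card < N).card ≤ N := by
  rcases (H.filter fun x => (sup lam H x).card < N).eq_empty_or_nonempty with h | h
  · simp [h]
  obtain ⟨y, hy, hmin⟩ := exists_min_image _ (lam H) h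
  refine le_trans (card_le_card fun x hx => ?_) (mem_filter.1 hy).2.le
  exact mem_sup.2 ⟨(mem_filter.1 hx).1, hmin x hx⟩

lemma sum_half_pow_le (n : ℕ) : ∑ i : Fin n, (1 / 2 : ℝ) ^ ((i : ℕ) + 1) ≤ 1 := by
  rw [Fin.sum_univ_eq_sum_range (fun i => (1 / 2 : ℝ) ^ (i + 1)) n]
  have : ∑ i ∈ range n, (1 / 2 : ℝ) ^ (i + 1) = 1 - (1 / 2) ^ n := by
    induction n with
    | zero => simp
    | succ n ih => rw [sum_range_succ, ih]; ring
  rw [this]
  have : (0 : ℝ) ≤ (1 / 2) ^ n := by positivity
  linarith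

omit [Fintype X] [DecidableEq X] in
lemma cand_weight (F : Set (Finset X)) (lam : Finset X → X → ℝ) (l : X → Fin (R + 1))
    (M : ℕ → ℕ) (T : ℕ) (hM : ∀ i, M i ≤ T) :
    ∑ x ∈ cand F lam l M, (1 / 4 : ℝ) ^ ((l x : ℕ) + 1) ≤ T := by
  rw [← sum_fiberwise_of_maps_to (s := cand F lam l M) (t := univ) (g := l)
    (fun _ _ => mem_univ _)]
  have h1 : ∀ j : Fin (R + 1), ∑ x ∈ cand F lam l M with l x = j, (1 / 4 : ℝ) ^ ((l x : ℕ) + 1)
      ≤ T * (1 / 2) ^ ((j : ℕ) + 1) := by
    intro j
    rw [sum_congr rfl (g := fun _ => (1 / 4 : ℝ) ^ ((j : ℕ) + 1))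
      (fun x hx => by rw [(mem_filter.1 hx).2]), sum_const, nsmul_eq_mul]
    have h2 : ((cand F lam l M).filter fun x => l x = j).card ≤ 2 ^ ((j : ℕ) + 1) * T := by
      refine le_trans (card_le_card fun x hx => ?_)
        (card_small_sup lam (can F lam l M) (2 ^ ((j : ℕ) + 1) * T))
      obtain ⟨h3, h4⟩ := mem_filter.1 hx
      obtain ⟨h5, h6⟩ := mem_filter.1 h3
      rw [h4] at h6
      exact mem_filter.2 ⟨h5, h6.trans_le (Nat.mul_le_mul_left _ (hM _))⟩
    have h3 : (((cand F lam l M).filter fun x => l x = j).card : ℝ) ≤ 2 ^ ((j : ℕ) + 1) * T := by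
      exact_mod_cast h2
    refine (mul_le_mul_of_nonneg_right h3 (by positivity)).trans (le_of_eq ?_)
    rw [mul_right_comm, ← mul_pow]
    norm_num [mul_comm]
  refine (sum_le_sum fun j _ => h1 j).trans ?_
  rw [← mul_sum]
  exact mul_le_of_le_one_right (by positivity) (sum_half_pow_le _)

lemma geom_le (y : ℝ) (h0 : 0 ≤ y) (h1 : y ≤ 1 / 2) (n : ℕ) :
    ∑ k ∈ range n, y ^ k ≤ 1 + 2 * y := by
  have : ∀ n, ∑ k ∈ range (n + 1), y ^ k ≤ 1 + 2 * y - 2 * y ^ (n + 1) := by
    intro n
    induction n with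
    | zero => simp
    | succ n ih =>
      rw [sum_range_succ, pow_succ y (n + 1)]
      have : 0 ≤ y ^ (n + 1) := by positivity
      nlinarith
  rcases n with _ | n
  · simp; linarith
  · have h2 : 0 ≤ y ^ (n + 1) := by positivity
    linarith [this n]

open Classical in
lemma sum_adm_le (F : Set (Finset X)) (lam : Finset X → X → ℝ) (l : X → Fin (R + 1)) :
    ∑ U : Finset X with (U.Nonempty ∧ U ⊆ cand F lam l (cum l U)),
      ∏ x ∈ U, ((1 / 1024 : ℝ) * (1 / 16) ^ (l x : ℕ)) ≤ 1 / 16 := by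
  set N := Fintype.card X with hN
  set ty : Finset X → (Fin (R + 1) → ℕ) := fun U j => (U.filter fun x => l x = j).card with hty
  set cumOf : (Fin (R + 1) → ℕ) → ℕ → ℕ :=
    fun m i => ∑ j : Fin (R + 1), if (j : ℕ) ≤ i then m j else 0 with hcumOf
  have hcum : ∀ U, cum l U = cumOf (ty U) := by
    intro U
    funext i
    unfold cum
    rw [card_eq_sum_card_fiberwise (f := l) (t := univ) (fun _ _ => mem_coe.2 (mem_univ _))]
    refine sum_congr rfl fun j _ => ?_
    split_ifs with h
    · simp only [hty]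
      congr 1
      ext x
      simp only [mem_filter]
      constructor
      · rintro ⟨⟨a, -⟩, b⟩; exact ⟨a, b⟩
      · rintro ⟨a, b⟩; exact ⟨⟨a, by rw [b]; exact h⟩, b⟩
    · rw [card_eq_zero, filter_eq_empty_iff]
      intro x hx hxj
      exact h (hxj ▸ (mem_filter.1 hx).2)
  set y : Fin (R + 1) → ℝ := fun j => (12 / 1024 : ℝ) * (1 / 4) ^ (j : ℕ) with hy
  set MM : Finset (Fin (R + 1) → ℕ) := (Fintype.piFinset fun _ => range (N + 1)).erase 0 with hMM
  rw [← sum_fiberwise_of_maps_to (g := ty) (t := MM)]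
  swap
  · intro U hU
    obtain ⟨x, hx⟩ := (mem_filter.1 hU).2.1
    rw [hMM, mem_erase, Fintype.mem_piFinset]
    refine ⟨fun h => ?_, fun j => mem_range.2 (Nat.lt_succ_of_le (card_le_univ _))⟩
    have h1 : ty U (l x) = 0 := by rw [h]; rfl
    simp only [hty, card_eq_zero, filter_eq_empty_iff] at h1
    exact h1 hx rfl
  have hfib : ∀ m : Fin (R + 1) → ℕ,
      ∑ U ∈ (univ.filter fun U : Finset X => (U.Nonempty ∧ U ⊆ cand F lam l (cum l U))) with
        ty U = m, ∏ x ∈ U, ((1 / 1024 : ℝ) * (1 / 16) ^ (l x : ℕ)) ≤ ∏ j, y j ^ m j := by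
    intro m
    set a : Fin (R + 1) → ℝ := fun j => (4 / 1024 : ℝ) * (1 / 4) ^ (j : ℕ) with ha
    have h1 : ∀ U : Finset X, ty U = m → ∏ x ∈ U, ((1 / 1024 : ℝ) * (1 / 16) ^ (l x : ℕ))
        = (∏ j, a j ^ m j) * ∏ x ∈ U, (1 / 4 : ℝ) ^ ((l x : ℕ) + 1) := by
      intro U hU
      have h2 : ∏ x ∈ U, a (l x) = ∏ j, a j ^ m j := by
        rw [← prod_fiberwise_of_maps_to (s := U) (t := univ) (g := l) (fun _ _ => mem_univ _)]
        refine prod_congr rfl fun j _ => ?_
        rw [prod_congr rfl (g := fun _ => a j) (fun x hx => by rw [(mem_filter.1 hx).2]),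
          prod_const, ← hU]
      rw [← h2, ← prod_mul_distrib]
      refine prod_congr rfl fun x _ => ?_
      simp only [ha]
      rw [pow_succ, show (1 / 16 : ℝ) = (1 / 4) * (1 / 4) by norm_num, mul_pow]
      ring
    have h3 : ∑ U ∈ (univ.filter fun U : Finset X => (U.Nonempty ∧ U ⊆ cand F lam l (cum l U)))
        with ty U = m, ∏ x ∈ U, ((1 / 1024 : ℝ) * (1 / 16) ^ (l x : ℕ))
        ≤ ∑ U ∈ (cand F lam l (cumOf m)).powerset,
          (∏ j, a j ^ m j) * ∏ x ∈ U, (1 / 4 : ℝ) ^ ((l x : ℕ) + 1) := by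
      rw [sum_congr rfl fun U hU => h1 U (mem_filter.1 hU).2]
      refine sum_le_sum_of_subset_of_nonneg (fun U hU => ?_) fun U _ _ => ?_
      · obtain ⟨h4, h5⟩ := mem_filter.1 hU
        have h6 := (mem_filter.1 h4).2.2
        rw [hcum, h5] at h6
        exact mem_powerset.2 h6
      · simp only [ha]; positivity
    refine h3.trans ?_
    rw [← mul_sum, ← prod_one_add]
    have h4 : ∏ x ∈ cand F lam l (cumOf m), (1 + (1 / 4 : ℝ) ^ ((l x : ℕ) + 1))
        ≤ 3 ^ (∑ j, m j) := by
      calc ∏ x ∈ cand F lam l (cumOf m), (1 + (1 / 4 : ℝ) ^ ((l x : ℕ) + 1))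
          ≤ ∏ x ∈ cand F lam l (cumOf m), Real.exp ((1 / 4 : ℝ) ^ ((l x : ℕ) + 1)) :=
            prod_le_prod (fun _ _ => by positivity)
              (fun _ _ => by linarith [Real.add_one_le_exp ((1 / 4 : ℝ) ^ ((l ‹X› : ℕ) + 1))])
        _ = Real.exp (∑ x ∈ cand F lam l (cumOf m), (1 / 4 : ℝ) ^ ((l x : ℕ) + 1)) :=
            (Real.exp_sum _ _).symm
        _ ≤ Real.exp ((∑ j, m j : ℕ) : ℝ) := by
            refine Real.exp_le_exp.2 (cand_weight F lam l _ _ fun i => ?_)
            refine sum_le_sum fun j _ => ?_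
            split_ifs <;> simp
        _ = Real.exp 1 ^ (∑ j, m j) := by rw [← Real.exp_nat_mul, mul_one]
        _ ≤ 3 ^ (∑ j, m j) :=
            pow_le_pow_left₀ (by positivity) (by linarith [Real.exp_one_lt_d9]) _
    refine (mul_le_mul_of_nonneg_left h4 (by simp only [ha]; positivity)).trans (le_of_eq ?_)
    rw [← prod_pow_eq_pow_sum, ← prod_mul_distrib]
    refine prod_congr rfl fun j _ => ?_
    rw [← mul_pow]
    congr 1
    simp only [ha, hy]
    ring
  refine (sum_le_sum fun m _ => hfib m).trans ?_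
  have h0 : (0 : Fin (R + 1) → ℕ) ∈ Fintype.piFinset fun _ : Fin (R + 1) => range (N + 1) := by
    simp
  have h5 := add_sum_erase _ (fun m : Fin (R + 1) → ℕ => ∏ j, y j ^ m j) h0
  simp only [Pi.zero_apply, pow_zero, prod_const_one] at h5
  rw [← prod_univ_sum (fun _ : Fin (R + 1) => range (N + 1)) (fun j k => y j ^ k)] at h5
  have hy0 : ∀ j, 0 ≤ y j := fun j => by simp only [hy]; positivity
  have hy1 : ∀ j, y j ≤ (24 / 1024) * (1 / 2) ^ ((j : ℕ) + 1) := by
    intro j
    simp only [hy]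
    have : (1 / 4 : ℝ) ^ (j : ℕ) ≤ (1 / 2) ^ (j : ℕ) :=
      pow_le_pow_left₀ (by norm_num) (by norm_num) _
    rw [pow_succ]
    linarith
  have hy2 : ∀ j, y j ≤ 1 / 2 := by
    intro j
    have : (1 / 2 : ℝ) ^ ((j : ℕ) + 1) ≤ 1 := pow_le_one₀ (by norm_num) (by norm_num)
    linarith [hy1 j]
  have h6 : ∏ j, ∑ k ∈ range (N + 1), y j ^ k ≤ Real.exp (48 / 1024) := by
    calc ∏ j, ∑ k ∈ range (N + 1), y j ^ k ≤ ∏ j, Real.exp (2 * y j) :=
          prod_le_prod (fun j _ => sum_nonneg fun _ _ => pow_nonneg (hy0 j) _)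
            (fun j _ => (geom_le _ (hy0 j) (hy2 j) _).trans
              (by linarith [Real.add_one_le_exp (2 * y j)]))
      _ = Real.exp (∑ j, 2 * y j) := (Real.exp_sum _ _).symm
      _ ≤ Real.exp (48 / 1024) := by
          refine Real.exp_le_exp.2 ?_
          rw [← mul_sum]
          have h7 : ∑ j, y j ≤ (24 / 1024) * ∑ j : Fin (R + 1), (1 / 2 : ℝ) ^ ((j : ℕ) + 1) := by
            rw [mul_sum]
            exact sum_le_sum fun j _ => hy1 j
          have h8 := sum_half_pow_le (R + 1)
          linarith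
  have h7 : Real.exp (48 / 1024) ≤ 17 / 16 := by
    have h8 := Real.add_one_le_exp (-(48 / 1024 : ℝ))
    rw [Real.exp_neg] at h8
    have h9 := Real.exp_pos (48 / 1024 : ℝ)
    rw [le_inv_comm₀ (by norm_num) h9] at h8
    exact h8.trans (by norm_num)
  linarith

end Vale.Agent.P034
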